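import Vale.Agent.P032.S5.H767.Let
import Vale.Agent.P032.S5.H767.Raw
import Vale.Agent.P032.S5.H225.Germ
import Vale.Agent.P032.H50.E1win

/-!
# P032: unit triangles, the pure case (helper439)

`y1 = (ab | ef)`, `y2 = (cd | ef)` two-pair points, `V, y1, y2` a unit triangle, `a b c d` colours of
`V`; every other point of the circles of `y1` and `y2` has at most three colours.  Impossible.

The three directions `x t = V + e(t)`, `w t = y1 + e(t)`, `u t = y2 + e(t)`; `W = w 1 = u 0`.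
-/

open Set Filter Topology Metric

noncomputable section

namespace Vale.Agent.P032.H439

open Vale.Agent.P032.Six Vale.Agent.P032.S5.H767

variable {U : Fin 6 → Set ℂ} {T : ℂ → Set (Fin 6)} {y1 y2 : ℂ} {w u : ℝ → ℂ}
  {a b c d e f : Fin 6}

/-- the frame -/
structure Fr439 (U : Fin 6 → Set ℂ) (T : ℂ → Set (Fin 6)) (y1 y2 : ℂ) (w u : ℝ → ℂ)
    (a b c d e f : Fin 6) : Prop where
  C1 : Ctr U T y1 a b e f c d
  C2 : Ctr U T y2 c d e f a b
  t1 : ∀ x, dist x y1 = 1 → (T x).ncard ≤ 3 → ({a, b} : Set (Fin 6)) ⊆ T x →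
    ∀ g ∈ T x, g ∈ T y1 → g = a ∨ g = b
  t2 : ∀ x, dist x y2 = 1 → (T x).ncard ≤ 3 → ({c, d} : Set (Fin 6)) ⊆ T x →
    ∀ g ∈ T x, g ∈ T y2 → g = c ∨ g = d
  cw : Continuous w
  cu : Continuous u
  dw : ∀ t, dist (w t) y1 = 1
  du : ∀ t, dist (u t) y2 = 1
  dwu : ∀ t, dist (w t) (u t) = 1
  d12 : dist y1 y2 = 1
  hW : w 1 = u 0
  p1 : ∀ t ∈ Ioo (-1 : ℝ) 2, u t ≠ y1 ∧ u t + y1 ≠ 2 * w t
  p2 : ∀ t ∈ Ioo (-1 : ℝ) 2, w t ≠ y2 ∧ w t + y2 ≠ 2 * u t
  ow : ∀ t ∈ Ioo (-1 : ℝ) 2, (T (w t)).ncard ≤ 3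
  ou : ∀ t ∈ Ioo (-1 : ℝ) 2, (T (u t)).ncard ≤ 3
  n0 : ∀ᶠ t in 𝓝[≠] (0 : ℝ), w t ∉ closure (Ex T y1 {e, f}) ∧ u t ∉ closure (Ex T y2 {e, f})
  n1 : ∀ᶠ t in 𝓝[≠] (1 : ℝ), w t ∉ closure (Ex T y1 {e, f}) ∧ u t ∉ closure (Ex T y2 {e, f})
  s1 : ∀ᶠ t in 𝓝[<] (1 : ℝ), ¬ ∀ m, w t ∈ Lt T y1 a b e f c d m → m = 0
  s1' : ∀ᶠ t in 𝓝[>] (1 : ℝ), ¬ ∀ m, w t ∈ Lt T y1 a b e f c d m → m = 1
  s0 : ∀ᶠ t in 𝓝[>] (0 : ℝ), ¬ ∀ m, u t ∈ Lt T y2 c d e f a b m → m = 0
  s0' : ∀ᶠ t in 𝓝[<] (0 : ℝ), ¬ ∀ m, u t ∈ Lt T y2 c d e f a b m → m = 1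

theorem tend_gt (r : ℝ) : Tendsto (fun t : ℝ => 1 - t) (𝓝[>] r) (𝓝[<] (1 - r)) := by
  refine tendsto_nhdsWithin_iff.2 ⟨?_, ?_⟩
  · have h : Continuous fun t : ℝ => 1 - t := by fun_prop
    exact (h.tendsto r).mono_left nhdsWithin_le_nhds
  · filter_upwards [self_mem_nhdsWithin] with t ht
    have : r < t := ht
    show 1 - t < 1 - r
    linarith

theorem tend_lt (r : ℝ) : Tendsto (fun t : ℝ => 1 - t) (𝓝[<] r) (𝓝[>] (1 - r)) := by
  refine tendsto_nhdsWithin_iff.2 ⟨?_, ?_⟩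
  · have h : Continuous fun t : ℝ => 1 - t := by fun_prop
    exact (h.tendsto r).mono_left nhdsWithin_le_nhds
  · filter_upwards [self_mem_nhdsWithin] with t ht
    have : t < r := ht
    show 1 - r < 1 - t
    linarith

theorem tend_ne (r : ℝ) : Tendsto (fun t : ℝ => 1 - t) (𝓝[≠] r) (𝓝[≠] (1 - r)) := by
  refine tendsto_nhdsWithin_iff.2 ⟨?_, ?_⟩
  · have h : Continuous fun t : ℝ => 1 - t := by fun_prop
    exact (h.tendsto r).mono_left nhdsWithin_le_nhds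
  · filter_upwards [self_mem_nhdsWithin] with t ht
    have ht : t ≠ r := ht
    intro h
    have h : 1 - t = 1 - r := h
    exact ht (by linarith)

namespace Fr439

/-- the mirror image -/
theorem mirror (F : Fr439 U T y1 y2 w u a b c d e f) :
    Fr439 U T y2 y1 (fun t => u (1 - t)) (fun t => w (1 - t)) c d a b e f where
  C1 := F.C2
  C2 := F.C1
  t1 := F.t2
  t2 := F.t1
  cw := F.cu.comp (by fun_prop)
  cu := F.cw.comp (by fun_prop)
  dw t := F.du _
  du t := F.dw _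
  dwu t := by rw [dist_comm]; exact F.dwu _
  d12 := by rw [dist_comm]; exact F.d12
  hW := by
    show u (1 - 1) = w (1 - 0)
    rw [sub_self, sub_zero]; exact F.hW.symm
  p1 t ht := F.p2 (1 - t) ⟨by linarith [ht.2], by linarith [ht.1]⟩
  p2 t ht := F.p1 (1 - t) ⟨by linarith [ht.2], by linarith [ht.1]⟩
  ow t ht := F.ou (1 - t) ⟨by linarith [ht.2], by linarith [ht.1]⟩
  ou t ht := F.ow (1 - t) ⟨by linarith [ht.2], by linarith [ht.1]⟩
  n0 := by
    have h := tend_ne 0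
    rw [sub_zero] at h
    exact (h.eventually F.n1).mono fun t ht => ht.symm
  n1 := by
    have h := tend_ne 1
    rw [sub_self] at h
    exact (h.eventually F.n0).mono fun t ht => ht.symm
  s1 := by
    have h := tend_lt 1
    rw [sub_self] at h
    exact h.eventually F.s0
  s1' := by
    have h := tend_gt 1
    rw [sub_self] at h
    exact h.eventually F.s0'
  s0 := by
    have h := tend_gt 0
    rw [sub_zero] at h
    exact h.eventually F.s1
  s0' := by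
    have h := tend_lt 0
    rw [sub_zero] at h
    exact h.eventually F.s1'

theorem irr (F : Fr439 U T y1 y2 w u a b c d e f) : Irr U T := F.C1.irr

/-- near a point with one letter the circle has the colours of the letter -/
theorem only_near (C : Ctr U T y1 a b c d e f) {x : ℂ} {l : Fin 4}
    (only : ∀ m, x ∈ Lt T y1 a b c d e f m → m = l) :
    ∀ᶠ q in 𝓝[sphere y1 1] x, col a b c d e f l ⊆ T q := by
  have h2 : ∀ m, m ≠ l → ∀ᶠ q in 𝓝 x, q ∉ Lt T y1 a b c d e f m := by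
    intro m hm
    exact (Lt_closed C.irr m).isOpen_compl.mem_nhds fun h3 => hm (only m h3)
  have h3 : ∀ᶠ q in 𝓝 x, ∀ m, m ≠ l → q ∉ Lt T y1 a b c d e f m := by
    rw [eventually_all]
    intro m
    by_cases hm : m = l
    · exact Eventually.of_forall fun q h4 => absurd hm h4
    · filter_upwards [h2 m hm] with q hq _
      exact hq
  filter_upwards [mem_nhdsWithin_of_mem_nhds h3, self_mem_nhdsWithin] with q hq hqz
  obtain ⟨m, hm⟩ := C.cover (y := q) hqz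
  by_cases hml : m = l
  · rw [← hml]; exact Lt_col C.irr hm
  · exact absurd hm (hq m hml)

/-- the only letter of `w t` is absent at `u t` -/
theorem only_w (F : Fr439 U T y1 y2 w u a b c d e f) {t : ℝ} (ht : t ∈ Ioo (-1 : ℝ) 2) {l : Fin 4}
    (only : ∀ m, w t ∈ Lt T y1 a b e f c d m → m = l) {i : Fin 6}
    (hi : i ∈ col a b e f c d l) : i ∉ T (u t) := by
  intro hiu
  exact line_free F.irr (F.dw t) ((only_near F.C1 only).mono fun q hq => hq hi) (F.dwu t)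
    (F.p1 t ht).1 (F.p1 t ht).2 (F.irr.sub _ hiu)

/-- the pair `ab` is not at both points -/
theorem two (F : Fr439 U T y1 y2 w u a b c d e f) {t : ℝ} (ht : t ∈ Ioo (-1 : ℝ) 2)
    (aw : a ∈ T (w t)) (bw : b ∈ T (w t)) (au : a ∈ T (u t)) (bu : b ∈ T (u t)) : False := by
  obtain ⟨⟨ab, ae, af, ac, ad⟩, ⟨be, bf, bc, bd⟩, ⟨ef, ec, ed⟩, ⟨fc, fd⟩, cd⟩ :
      (a ≠ b ∧ a ≠ e ∧ a ≠ f ∧ a ≠ c ∧ a ≠ d) ∧ (b ≠ e ∧ b ≠ f ∧ b ≠ c ∧ b ≠ d) ∧
      (e ≠ f ∧ e ≠ c ∧ e ≠ d) ∧ (f ≠ c ∧ f ≠ d) ∧ c ≠ d := by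
    have hn := F.C1.nd
    simp only [List.nodup_cons, List.mem_cons, List.not_mem_nil, or_false, not_or, List.nodup_nil,
      and_true, not_false_eq_true] at hn
    exact hn
  have duw : dist (u t) (w t) = 1 := by rw [dist_comm]; exact F.dwu t
  obtain ⟨g, hgu, hgw⟩ := F.irr.not_sub' duw (F.ow t ht)
  have hga : g ≠ a := fun h => hgw (h ▸ aw)
  have hgb : g ≠ b := fun h => hgw (h ▸ bw)
  have hgy : g ∈ T y2 := by
    rw [F.C2.pal]
    rcases F.C2.all g with h | h | h | h | h | h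
    · exact Or.inl h
    · exact Or.inr (Or.inl h)
    · exact Or.inr (Or.inr (Or.inl h))
    · exact Or.inr (Or.inr (Or.inr h))
    · exact absurd h hga
    · exact absurd h hgb
  have hT : ({a, b, g} : Set (Fin 6)) = T (u t) := by
    refine Set.eq_of_subset_of_ncard_le ?_ ?_ (Set.toFinite _)
    · rintro m (rfl | rfl | rfl) <;> assumption
    · have : ({a, b, g} : Set (Fin 6)).ncard = 3 :=
        Set.ncard_eq_three.2 ⟨a, b, g, ab, hga.symm, hgb.symm, rfl⟩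
      rw [this]; exact F.ou t ht
  have hsub : T (u t) ⊆ insert g (T (w t)) := by
    rw [← hT]
    rintro m (rfl | rfl | rfl)
    · exact Or.inr aw
    · exact Or.inr bw
    · exact Or.inl rfl
  rcases F.irr.lemmaX duw (F.ow t ht) hsub (F.du t) (F.irr.sub _ hgy) with h | h
  · exact (F.p2 t ht).1 h.symm
  · exact (F.p2 t ht).2 (by rw [add_comm]; exact h)

/-- `ab` at `w t`: `cd` or `ef` at `u t` -/
theorem step (F : Fr439 U T y1 y2 w u a b c d e f) {t : ℝ} (ht : t ∈ Ioo (-1 : ℝ) 2)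
    (hw : w t ∈ closure (Ex T y1 {a, b})) (hu2 : u t ∉ closure (Ex T y2 {c, d}))
    (hu3 : u t ∉ closure (Ex T y2 {e, f})) : False := by
  have hab : ({a, b} : Set (Fin 6)) ⊆ T (w t) := sub_of_closure F.irr hw
  have aw : a ∈ T (w t) := hab (Or.inl rfl)
  have bw : b ∈ T (w t) := hab (Or.inr rfl)
  have hlet : ∀ m, u t ∈ Lt T y2 c d e f a b m → m = 0 ∨ m = 1 := by
    intro m hm
    fin_cases m
    · exact Or.inl rfl
    · exact Or.inr rfl
    · exact absurd hm hu2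
    · exact absurd hm hu3
  have G := F.mirror
  have ht' : (1 - t) ∈ Ioo (-1 : ℝ) 2 := ⟨by linarith [ht.2], by linarith [ht.1]⟩
  have e1 : u (1 - (1 - t)) = u t := by congr 1; ring
  have e2 : w (1 - (1 - t)) = w t := by congr 1; ring
  by_cases h0 : a ∈ T (u t)
  · by_cases h1 : b ∈ T (u t)
    · exact F.two ht aw bw h0 h1
    · refine G.only_w ht' (l := 0) (i := a) (fun m hm => ?_) rfl ?_
      · have hm : u (1 - (1 - t)) ∈ Lt T y2 c d e f a b m := hm
        rw [e1] at hm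
        rcases hlet m hm with h | h
        · exact h
        · subst h; exact absurd hm.2 h1
      · show a ∈ T (w (1 - (1 - t)))
        rw [e2]; exact aw
  · refine G.only_w ht' (l := 1) (i := b) (fun m hm => ?_) rfl ?_
    · have hm : u (1 - (1 - t)) ∈ Lt T y2 c d e f a b m := hm
      rw [e1] at hm
      rcases hlet m hm with h | h
      · subst h; exact absurd hm.2 h0
      · exact h
    · show b ∈ T (w (1 - (1 - t)))
      rw [e2]; exact bw

/-- `cd` at `u t`: `ab` or `ef` at `w t` -/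
theorem step' (F : Fr439 U T y1 y2 w u a b c d e f) {t : ℝ} (ht : t ∈ Ioo (-1 : ℝ) 2)
    (hu : u t ∈ closure (Ex T y2 {c, d})) (hw2 : w t ∉ closure (Ex T y1 {a, b}))
    (hw3 : w t ∉ closure (Ex T y1 {e, f})) : False := by
  have e1 : u (1 - (1 - t)) = u t := by congr 1; ring
  have e2 : w (1 - (1 - t)) = w t := by congr 1; ring
  refine F.mirror.step (t := 1 - t) ⟨by linarith [ht.2], by linarith [ht.1]⟩ ?_ ?_ ?_
  · show u (1 - (1 - t)) ∈ _
    rw [e1]; exact hu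
  · show w (1 - (1 - t)) ∉ _
    rw [e2]; exact hw2
  · show w (1 - (1 - t)) ∉ _
    rw [e2]; exact hw3

/-- the set of times with `ab` at `w` and `cd` at `u` -/
def K (T : ℂ → Set (Fin 6)) (y1 y2 : ℂ) (w u : ℝ → ℂ) (a b c d : Fin 6) : Set ℝ :=
  {t | w t ∈ closure (Ex T y1 {a, b}) ∧ u t ∈ closure (Ex T y2 {c, d})}

theorem closed_K (F : Fr439 U T y1 y2 w u a b c d e f) : IsClosed (K T y1 y2 w u a b c d) :=
  (isClosed_closure.preimage F.cw).inter (isClosed_closure.preimage F.cu)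

/-- the set is open, if one of the points is a pair -/
theorem open_aux (F : Fr439 U T y1 y2 w u a b c d e f) {t : ℝ} (ht : t ∈ Ioo (-1 : ℝ) 2)
    (hw : w t ∈ closure (Ex T y1 {a, b})) (hcd : T (u t) ⊆ {c, d}) :
    ∀ᶠ s in 𝓝 t, s ∈ K T y1 y2 w u a b c d := by
  obtain ⟨⟨ab, ae, af, ac, ad⟩, ⟨be, bf, bc, bd⟩, ⟨ef, ec, ed⟩, ⟨fc, fd⟩, cd⟩ :
      (a ≠ b ∧ a ≠ e ∧ a ≠ f ∧ a ≠ c ∧ a ≠ d) ∧ (b ≠ e ∧ b ≠ f ∧ b ≠ c ∧ b ≠ d) ∧
      (e ≠ f ∧ e ≠ c ∧ e ≠ d) ∧ (f ≠ c ∧ f ≠ d) ∧ c ≠ d := by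
    have hn := F.C1.nd
    simp only [List.nodup_cons, List.mem_cons, List.not_mem_nil, or_false, not_or, List.nodup_nil,
      and_true, not_false_eq_true] at hn
    exact hn
  have hab : ({a, b} : Set (Fin 6)) ⊆ T (w t) := sub_of_closure F.irr hw
  have hew : e ∉ T (w t) := fun h => by
    rcases F.t1 _ (F.dw t) (F.ow t ht) hab e h (by rw [F.C1.pal]; simp) with h1 | h1
    · exact ae h1.symm
    · exact be h1.symm
  filter_upwards [(F.cw.tendsto t).eventually (F.irr.nhd (w t)),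
    (F.cu.tendsto t).eventually (F.irr.nhd (u t)), Ioo_mem_nhds ht.1 ht.2] with s h1 h2 hs
  have h3 : T (u s) ⊆ {c, d} := h2.trans hcd
  have hu : u s ∈ closure (Ex T y2 {c, d}) := by
    obtain ⟨m, hm⟩ := F.C2.cover (y := u s) (F.du s)
    fin_cases m
    · exfalso
      rcases h3 hm.2 with h | h
      · exact ac h
      · exact ad h
    · exfalso
      rcases h3 hm.2 with h | h
      · exact bc h
      · exact bd h
    · exact hm
    · exfalso
      rcases h3 (sub_of_closure F.irr (P := {e, f}) hm (Or.inl rfl)) with h | h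
      · exact ec h
      · exact ed h
  have hcu : c ∈ T (u s) := sub_of_closure F.irr hu (Or.inl rfl)
  have hdu : d ∈ T (u s) := sub_of_closure F.irr hu (Or.inr rfl)
  refine ⟨?_, hu⟩
  by_contra hcon
  have hlet : ∀ m, w s ∈ Lt T y1 a b e f c d m → m = 0 ∨ m = 1 := by
    intro m hm
    fin_cases m
    · exact Or.inl rfl
    · exact Or.inr rfl
    · exact absurd hm hcon
    · exact absurd (h1 (sub_of_closure F.irr (P := {e, f}) hm (Or.inl rfl))) hew
  by_cases k0 : c ∈ T (w s)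
  · refine F.only_w hs (l := 0) (i := c) (fun m hm => ?_) rfl hcu
    rcases hlet m hm with h | h
    · exact h
    · exfalso
      subst h
      have := four_le (s := T (w t)) (hab (Or.inl rfl)) (hab (Or.inr rfl)) (h1 k0) (h1 hm.2)
        (by simp [ab, ac, ad, bc, bd, cd])
      have := F.ow t ht
      omega
  · refine F.only_w hs (l := 1) (i := d) (fun m hm => ?_) rfl hdu
    rcases hlet m hm with h | h
    · subst h; exact absurd hm.2 k0
    · exact h

theorem open_K (F : Fr439 U T y1 y2 w u a b c d e f) {t : ℝ} (ht : t ∈ Ioo (-1 : ℝ) 2)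
    (hK : t ∈ K T y1 y2 w u a b c d) : ∀ᶠ s in 𝓝 t, s ∈ K T y1 y2 w u a b c d := by
  obtain ⟨⟨ab, ae, af, ac, ad⟩, ⟨be, bf, bc, bd⟩, ⟨ef, ec, ed⟩, ⟨fc, fd⟩, cd⟩ :
      (a ≠ b ∧ a ≠ e ∧ a ≠ f ∧ a ≠ c ∧ a ≠ d) ∧ (b ≠ e ∧ b ≠ f ∧ b ≠ c ∧ b ≠ d) ∧
      (e ≠ f ∧ e ≠ c ∧ e ≠ d) ∧ (f ≠ c ∧ f ≠ d) ∧ c ≠ d := by
    have hn := F.C1.nd
    simp only [List.nodup_cons, List.mem_cons, List.not_mem_nil, or_false, not_or, List.nodup_nil,
      and_true, not_false_eq_true] at hn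
    exact hn
  obtain ⟨hw, hu⟩ := hK
  by_cases h1 : T (u t) ⊆ {c, d}
  · exact F.open_aux ht hw h1
  by_cases h2 : T (w t) ⊆ {a, b}
  · have ht' : (1 - t) ∈ Ioo (-1 : ℝ) 2 := ⟨by linarith [ht.2], by linarith [ht.1]⟩
    have e1 : u (1 - (1 - t)) = u t := by congr 1; ring
    have e2 : w (1 - (1 - t)) = w t := by congr 1; ring
    have h3 := F.mirror.open_aux (t := 1 - t) ht' (by
      show u (1 - (1 - t)) ∈ _
      rw [e1]; exact hu) (by
      show T (w (1 - (1 - t))) ⊆ _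
      rw [e2]; exact h2)
    have hc : Continuous fun s : ℝ => 1 - s := by fun_prop
    filter_upwards [(hc.tendsto t).eventually h3] with s hs
    have e3 : (1 : ℝ) - (1 - s) = s := by ring
    obtain ⟨k1, k2⟩ := hs
    have k1 : u (1 - (1 - s)) ∈ closure (Ex T y2 {c, d}) := k1
    have k2 : w (1 - (1 - s)) ∈ closure (Ex T y1 {a, b}) := k2
    rw [e3] at k1 k2
    exact ⟨k2, k1⟩
  -- two triples
  exfalso
  have hab : ({a, b} : Set (Fin 6)) ⊆ T (w t) := sub_of_closure F.irr hw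
  have hcd : ({c, d} : Set (Fin 6)) ⊆ T (u t) := sub_of_closure F.irr hu
  obtain ⟨g, hg, hgcd⟩ := Set.not_subset.1 h1
  obtain ⟨g', hg', hgab⟩ := Set.not_subset.1 h2
  have k1 : g ∉ T y2 := fun h => by
    rcases F.t2 _ (F.du t) (F.ou t ht) hcd g hg h with h3 | h3
    · exact hgcd (Or.inl h3)
    · exact hgcd (Or.inr h3)
  have k2 : g' ∉ T y1 := fun h => by
    rcases F.t1 _ (F.dw t) (F.ow t ht) hab g' hg' h with h3 | h3
    · exact hgab (Or.inl h3)
    · exact hgab (Or.inr h3)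
  have k3 := F.C2.miss k1
  have k4 := F.C1.miss k2
  have hTw : ({a, b, g'} : Set (Fin 6)) = T (w t) := by
    refine Set.eq_of_subset_of_ncard_le ?_ ?_ (Set.toFinite _)
    · rintro m (rfl | rfl | rfl)
      · exact hab (Or.inl rfl)
      · exact hab (Or.inr rfl)
      · exact hg'
    · have : ({a, b, g'} : Set (Fin 6)).ncard = 3 := Set.ncard_eq_three.2
        ⟨a, b, g', ab, fun h => hgab (Or.inl h.symm), fun h => hgab (Or.inr h.symm), rfl⟩
      rw [this]; exact F.ow t ht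
  have hg'u : g' ∈ T (u t) := by
    rcases k4 with h | h
    · exact h ▸ hcd (Or.inl rfl)
    · exact h ▸ hcd (Or.inr rfl)
  have hfin : ∀ x ∈ T y1, T (w t) ⊆ insert x (T (u t)) → False := by
    intro x hx hsub
    rcases F.irr.lemmaX (F.dwu t) (F.ou t ht) hsub (F.dw t) (F.irr.sub _ hx) with h | h
    · exact (F.p1 t ht).1 h.symm
    · exact (F.p1 t ht).2 (by rw [add_comm]; exact h)
  rcases k3 with h | h
  · refine hfin b (by rw [F.C1.pal]; simp) ?_
    rw [← hTw]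
    rintro m (rfl | rfl | rfl)
    · exact Or.inr (h ▸ hg)
    · exact Or.inl rfl
    · exact Or.inr hg'u
  · refine hfin a (by rw [F.C1.pal]; simp) ?_
    rw [← hTw]
    rintro m (rfl | rfl | rfl)
    · exact Or.inl rfl
    · exact Or.inr (h ▸ hg)
    · exact Or.inr hg'u

/-- `K` does not meet the unit interval -/
theorem empty_K (F : Fr439 U T y1 y2 w u a b c d e f) : ∀ t ∈ Ioo (0 : ℝ) 1,
    t ∉ K T y1 y2 w u a b c d := by
  intro t0 ht0 hK0
  have hall : ∀ t ∈ Ioo (0 : ℝ) 1, t ∈ K T y1 y2 w u a b c d := by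
    by_contra hcon
    push Not at hcon
    obtain ⟨t1, ht1, hK1⟩ := hcon
    have hpre : IsPreconnected (Ioo (0 : ℝ) 1) := isPreconnected_Ioo
    obtain ⟨s, hs, hs1, hs2⟩ := hpre (interior (K T y1 y2 w u a b c d))
      (K T y1 y2 w u a b c d)ᶜ isOpen_interior F.closed_K.isOpen_compl (fun s hs => by
        by_cases h : s ∈ K T y1 y2 w u a b c d
        · exact Or.inl (mem_interior_iff_mem_nhds.2
            (F.open_K ⟨by linarith [hs.1], by linarith [hs.2]⟩ h))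
        · exact Or.inr h)
      ⟨t0, ht0, mem_interior_iff_mem_nhds.2
        (F.open_K ⟨by linarith [ht0.1], by linarith [ht0.2]⟩ hK0)⟩ ⟨t1, ht1, hK1⟩
    exact hs2 (interior_subset hs1)
  have hcl : Icc (0 : ℝ) 1 ⊆ K T y1 y2 w u a b c d := by
    rw [← closure_Ioo (zero_ne_one)]
    exact closure_minimal hall F.closed_K
  have h0 := (hcl ⟨le_rfl, zero_le_one⟩).2
  have h1 := (hcl ⟨zero_le_one, le_rfl⟩).1
  rw [← F.hW] at h0
  have k0 := sub_of_closure F.irr h0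
  have k1 := sub_of_closure F.irr h1
  have hn := F.C1.nd
  simp only [List.nodup_cons, List.mem_cons, List.not_mem_nil, or_false, not_or, List.nodup_nil,
    and_true, not_false_eq_true] at hn
  obtain ⟨⟨ab, ae, af, ac, ad⟩, ⟨be, bf, bc, bd⟩, ⟨ef, ec, ed⟩, ⟨fc, fd⟩, cd⟩ := hn
  have h4 := four_le (k1 (Or.inl rfl)) (k1 (Or.inr rfl)) (k0 (Or.inl rfl)) (k0 (Or.inr rfl))
    (by simp [ab, ac, ad, bc, bd, cd])
  have := F.ow 1 ⟨by norm_num, by norm_num⟩
  omega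

/-- before the time `1` -/
theorem before (F : Fr439 U T y1 y2 w u a b c d e f) :
    d ∈ T (w 1) ∧ (a ∈ T (u 1) ∨ b ∈ T (u 1)) := by
  have hev : ∀ᶠ t in 𝓝[<] (1 : ℝ), d ∈ T (w t) ∧ (a ∈ T (u t) ∨ b ∈ T (u t)) := by
    have hmem : Ioo (0 : ℝ) 1 ∈ 𝓝[<] (1 : ℝ) := Ioo_mem_nhdsLT zero_lt_one
    have hn1 : ∀ᶠ t in 𝓝[<] (1 : ℝ), w t ∉ closure (Ex T y1 {e, f}) ∧
        u t ∉ closure (Ex T y2 {e, f}) :=
      F.n1.filter_mono (nhdsWithin_mono _ fun t ht => ne_of_lt ht)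
    filter_upwards [hmem, hn1, F.s1] with t ht hn hs
    have ht2 : t ∈ Ioo (-1 : ℝ) 2 := ⟨by linarith [ht.1], by linarith [ht.2]⟩
    have hK := F.empty_K t ht
    have hw2 : w t ∉ closure (Ex T y1 {a, b}) := fun h =>
      F.step ht2 h (fun h' => hK ⟨h, h'⟩) hn.2
    have hu2 : u t ∉ closure (Ex T y2 {c, d}) := fun h =>
      F.step' ht2 h (fun h' => hK ⟨h', h⟩) hn.1
    constructor
    · by_contra hd
      refine hs fun m hm => ?_
      fin_cases m
      · rfl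
      · exact absurd hm.2 hd
      · exact absurd hm hw2
      · exact absurd hm hn.1
    · obtain ⟨m, hm⟩ := F.C2.cover (y := u t) (F.du t)
      fin_cases m
      · exact Or.inl hm.2
      · exact Or.inr hm.2
      · exact absurd hm hu2
      · exact absurd hm hn.2
  have hlim : ∀ {v : ℝ → ℂ} {i : Fin 6}, Continuous v →
      (∃ᶠ t in 𝓝[<] (1 : ℝ), i ∈ T (v t)) → i ∈ T (v 1) := by
    intro v i hv hf
    have h1 : IsClosed {t : ℝ | i ∈ T (v t)} := (F.irr.closed i).preimage hv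
    have h2 : (1 : ℝ) ∈ {t : ℝ | i ∈ T (v t)} :=
      h1.mem_of_frequently_of_tendsto (f := fun t : ℝ => t) (b := 𝓝[<] (1 : ℝ)) hf
        (tendsto_id.mono_left nhdsWithin_le_nhds)
    exact h2
  refine ⟨hlim F.cw (hev.mono fun t ht => ht.1).frequently, ?_⟩
  have h2 : ∃ᶠ t in 𝓝[<] (1 : ℝ), (a ∈ T (u t) ∨ b ∈ T (u t)) :=
    (hev.mono fun t ht => ht.2).frequently
  rw [frequently_or_distrib] at h2
  rcases h2 with h2 | h2
  · exact Or.inl (hlim F.cu h2)
  · exact Or.inr (hlim F.cu h2)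

/-- the letter `ab` at `W` -/
theorem caseA (F : Fr439 U T y1 y2 w u a b c d e f) (hW2 : w 1 ∈ closure (Ex T y1 {a, b}))
    (hcW : c ∉ T (w 1)) : False := by
  obtain ⟨⟨ab, ae, af, ac, ad⟩, ⟨be, bf, bc, bd⟩, ⟨ef, ec, ed⟩, ⟨fc, fd⟩, cd⟩ :
      (a ≠ b ∧ a ≠ e ∧ a ≠ f ∧ a ≠ c ∧ a ≠ d) ∧ (b ≠ e ∧ b ≠ f ∧ b ≠ c ∧ b ≠ d) ∧
      (e ≠ f ∧ e ≠ c ∧ e ≠ d) ∧ (f ≠ c ∧ f ≠ d) ∧ c ≠ d := by
    have hn := F.C1.nd
    simp only [List.nodup_cons, List.mem_cons, List.not_mem_nil, or_false, not_or, List.nodup_nil,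
      and_true, not_false_eq_true] at hn
    exact hn
  obtain ⟨hd, hab1⟩ := F.before
  have h1m : (1 : ℝ) ∈ Ioo (-1 : ℝ) 2 := ⟨by norm_num, by norm_num⟩
  have hab : ({a, b} : Set (Fin 6)) ⊆ T (w 1) := sub_of_closure F.irr hW2
  have hTW : ({a, b, d} : Set (Fin 6)) = T (w 1) := by
    refine Set.eq_of_subset_of_ncard_le ?_ ?_ (Set.toFinite _)
    · rintro m (rfl | rfl | rfl)
      · exact hab (Or.inl rfl)
      · exact hab (Or.inr rfl)
      · exact hd
    · have : ({a, b, d} : Set (Fin 6)).ncard = 3 := Set.ncard_eq_three.2 ⟨a, b, d, ab, ad, bd, rfl⟩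
      rw [this]; exact F.ow 1 h1m
  have heW : e ∉ T (w 1) := by
    rw [← hTW]
    rintro (h | h | h)
    · exact ae h.symm
    · exact be h.symm
    · exact ed h
  -- after the time `1`
  have hev : ∀ᶠ t in 𝓝[>] (1 : ℝ), u t ∈ closure (Ex T y2 {c, d}) := by
    have hmem : Ioo (1 : ℝ) 2 ∈ 𝓝[>] (1 : ℝ) := Ioo_mem_nhdsGT (by norm_num)
    have hn1 : ∀ᶠ t in 𝓝[>] (1 : ℝ), w t ∉ closure (Ex T y1 {e, f}) ∧
        u t ∉ closure (Ex T y2 {e, f}) :=
      F.n1.filter_mono (nhdsWithin_mono _ fun t ht => ne_of_gt ht)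
    have hnh : ∀ᶠ t in 𝓝[>] (1 : ℝ), T (w t) ⊆ T (w 1) :=
      ((F.cw.tendsto 1).mono_left nhdsWithin_le_nhds).eventually (F.irr.nhd (w 1))
    filter_upwards [hmem, hn1, hnh, F.s1'] with t ht hn hsub hs
    have ht2 : t ∈ Ioo (-1 : ℝ) 2 := ⟨by linarith [ht.1], by linarith [ht.2]⟩
    have hwt : w t ∈ closure (Ex T y1 {a, b}) := by
      by_contra hcon
      refine hs fun m hm => ?_
      fin_cases m
      · exact absurd (hsub hm.2) hcW
      · rfl
      · exact absurd hm hcon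
      · exact absurd hm hn.1
    by_contra hcon
    exact F.step ht2 hwt hcon hn.2
  have hu1 : u 1 ∈ closure (Ex T y2 {c, d}) := by
    have h1 : IsClosed {t : ℝ | u t ∈ closure (Ex T y2 {c, d})} :=
      isClosed_closure.preimage F.cu
    have h2 : (1 : ℝ) ∈ {t : ℝ | u t ∈ closure (Ex T y2 {c, d})} :=
      h1.mem_of_frequently_of_tendsto (f := fun t : ℝ => t) (b := 𝓝[>] (1 : ℝ)) hev.frequently
        (tendsto_id.mono_left nhdsWithin_le_nhds)
    exact h2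
  have hdu : d ∈ T (u 1) := sub_of_closure F.irr hu1 (Or.inr rfl)
  have hfin : ∀ x ∈ T y1, T (w 1) ⊆ insert x (T (u 1)) → False := by
    intro x hx hsub
    rcases F.irr.lemmaX (F.dwu 1) (F.ou 1 h1m) hsub (F.dw 1) (F.irr.sub _ hx) with h | h
    · exact (F.p1 1 h1m).1 h.symm
    · exact (F.p1 1 h1m).2 (by rw [add_comm]; exact h)
  rcases hab1 with h | h
  · refine hfin b (by rw [F.C1.pal]; simp) ?_
    rw [← hTW]
    rintro m (rfl | rfl | rfl)
    · exact Or.inr h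
    · exact Or.inl rfl
    · exact Or.inr hdu
  · refine hfin a (by rw [F.C1.pal]; simp) ?_
    rw [← hTW]
    rintro m (rfl | rfl | rfl)
    · exact Or.inl rfl
    · exact Or.inr h
    · exact Or.inr hdu

/-- another letter at `W` -/
theorem other (F : Fr439 U T y1 y2 w u a b c d e f) :
    c ∈ T (w 1) ∨ w 1 ∈ closure (Ex T y1 {a, b}) ∨ (e ∈ T (w 1) ∧ f ∈ T (w 1)) := by
  by_contra hcon
  push Not at hcon
  obtain ⟨k1, k2, k3⟩ := hcon
  have only : ∀ m, w 1 ∈ Lt T y1 a b e f c d m → m = 1 := by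
    intro m hm
    fin_cases m
    · exact absurd hm.2 k1
    · rfl
    · exact absurd hm k2
    · have h := sub_of_closure F.irr (P := {e, f}) hm
      exact absurd (h (Or.inr rfl)) (k3 (h (Or.inl rfl)))
  have hWy2 : dist (w 1) y2 = 1 := by rw [F.hW]; exact F.du 0
  have dy2 : dist y2 y1 = 1 := by rw [dist_comm]; exact F.d12
  obtain ⟨h1, h2⟩ := tri (F.dw 1) dy2
  refine line_free F.irr (F.dw 1) (t := d) ((only_near F.C1 only).mono fun q hq => hq rfl) hWy2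
    (fun h => h1 h.symm) (fun h => h2 (by rw [← h]; ring)) (F.irr.sub _ ?_)
  rw [F.C2.pal]; simp

/-- **the frame is impossible** -/
theorem false (F : Fr439 U T y1 y2 w u a b c d e f) : False := by
  obtain ⟨⟨ab, ae, af, ac, ad⟩, ⟨be, bf, bc, bd⟩, ⟨ef, ec, ed⟩, ⟨fc, fd⟩, cd⟩ :
      (a ≠ b ∧ a ≠ e ∧ a ≠ f ∧ a ≠ c ∧ a ≠ d) ∧ (b ≠ e ∧ b ≠ f ∧ b ≠ c ∧ b ≠ d) ∧
      (e ≠ f ∧ e ≠ c ∧ e ≠ d) ∧ (f ≠ c ∧ f ≠ d) ∧ c ≠ d := by
    have hn := F.C1.nd
    simp only [List.nodup_cons, List.mem_cons, List.not_mem_nil, or_false, not_or, List.nodup_nil,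
      and_true, not_false_eq_true] at hn
    exact hn
  have G := F.mirror
  have h3 := F.ow 1 ⟨by norm_num, by norm_num⟩
  have e0 : u (1 - 1) = w 1 := by rw [sub_self]; exact F.hW.symm
  have hd := F.before.1
  have hb : b ∈ T (w 1) := by
    have := G.before.1
    rwa [e0] at this
  have hef : ¬ (e ∈ T (w 1) ∧ f ∈ T (w 1)) := by
    rintro ⟨h1, h2⟩
    have := four_le hb hd h1 h2 (by simp [bd, be, bf, ed.symm, fd.symm, ef])
    omega
  by_cases hc : c ∈ T (w 1)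
  · -- the mirror image
    have ha : a ∉ T (w 1) := fun ha => by
      have := four_le ha hb hc hd (by simp [ab, ac, ad, bc, bd, cd])
      omega
    have h1 := G.other
    rw [e0] at h1
    rcases h1 with h1 | h1 | h1
    · exact ha h1
    · exact G.caseA (by rw [e0]; exact h1) (by rw [e0]; exact ha)
    · exact hef h1
  · rcases F.other with h1 | h1 | h1
    · exact hc h1
    · exact F.caseA h1 hc
    · exact hef h1

end Fr439

end Vale.Agent.P032.H439
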