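import Vale.Agent.P032.H439.Tri
import Vale.Agent.P032.S5.H824.Two
import Vale.Agent.P032.S5.H394.Arc

/-!
# P032: unit triangles, the pure case, instance (helper439)

`tri439`: `V, y1, y2` a unit triangle, `y1 = (ab | ef)`, `y2 = (cd | ef)` two-pair points, `V` has the
colours `a b c d`, all other points of the circles of `y1` and `y2` have at most three colours:
impossible.
-/

open Set Filter Topology Metric

noncomputable section

namespace Vale.Agent.P032.H439

open Vale.Agent.P032.Six Vale.Agent.P032.S5.H767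

variable {U : Fin 6 → Set ℂ} {T : ℂ → Set (Fin 6)} {V z v y1 y2 : ℂ} {a b c d e f : Fin 6}

/-- a colour of `z` at a point of order three with a pair of `z` is a colour of the pair -/
theorem third439 (h : Irr U T) (hz : DPt T z a b c d) {w : ℂ} (hwz : dist w z = 1)
    (h3 : (T w).ncard ≤ 3) (hab : ({a, b} : Set (Fin 6)) ⊆ T w) {g : Fin 6} (hgw : g ∈ T w)
    (hgz : g ∈ T z) : g = a ∨ g = b := by
  by_contra hgP
  push Not at hgP
  have hgP' : g ∉ ({a, b} : Set (Fin 6)) := by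
    rintro (h1 | h1)
    · exact hgP.1 h1
    · exact hgP.2 h1
  have hT : T w = insert g {a, b} := by
    symm
    refine Set.eq_of_subset_of_ncard_le (insert_subset hgw hab) ?_ (Set.toFinite _)
    rw [Set.ncard_insert_of_notMem hgP' (Set.toFinite _), Set.ncard_pair hz.ab]
    exact h3
  obtain ⟨m, hm, hcov⟩ : ∃ m ∈ ({c, d} : Set (Fin 6)), T z ⊆ insert m (T w) := by
    rw [hz.pal] at hgz
    rcases hgz with h4 | h4 | h4 | h4
    · exact absurd (Or.inl h4) hgP'
    · exact absurd (Or.inr h4) hgP'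
    · refine ⟨d, by simp, ?_⟩
      rw [hz.pal, hT, h4]
      rintro i (rfl | rfl | rfl | rfl) <;> simp
    · rw [mem_singleton_iff] at h4
      refine ⟨c, by simp, ?_⟩
      rw [hz.pal, hT, h4]
      rintro i (rfl | rfl | rfl | rfl) <;> simp
  obtain ⟨p2, hp2⟩ := hz.arc2
  obtain ⟨q2, hq2, hne, hop⟩ := hp2.exists_off_line (y := p2)
  have m1 : m ∈ T q2 := by rw [hq2.mem]; exact hm
  have m2 : m ∈ T p2 := by rw [hp2.mem]; exact hm
  by_cases h1 : q2 ≠ w ∧ q2 + w ≠ 2 * z
  · exact h.third_notMem hwz h3 hcov hq2.1 (h.sub _ m1) h1.1 h1.2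
  · refine h.third_notMem hwz h3 hcov hp2.1 (h.sub _ m2) (fun h5 => ?_) fun h5 => ?_
    · by_cases h6 : q2 = w
      · exact hne (h6.trans h5.symm)
      · push Not at h1
        exact hop (by rw [h5]; exact h1 h6)
    · by_cases h6 : q2 = w
      · exact hop (by rw [h6, add_comm]; exact h5)
      · push Not at h1
        exact hne (by linear_combination (h1 h6) - h5)

/-- the germ of `S(z)` at a two-pair point with a pair inside `T z` -/
theorem germ439 (h : Irr U T) (hv : DPt T v c d e f) (hz : dist v z = 1) (he : e ∈ T z)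
    (hf : f ∈ T z) :
    ((∀ᶠ t : ℝ in 𝓝[>] 0, c ∈ T (hb z v 1 t)) ∧ ∀ᶠ t : ℝ in 𝓝[>] 0, d ∈ T (hb z v (-1) t)) ∨
      ((∀ᶠ t : ℝ in 𝓝[>] 0, d ∈ T (hb z v 1 t)) ∧ ∀ᶠ t : ℝ in 𝓝[>] 0, c ∈ T (hb z v (-1) t)) := by
  have he' := h.sub _ he
  have hf' := h.sub _ hf
  rcases h.germ_branch hv hz with ⟨g1, g2⟩ | ⟨g1, g2⟩ | ⟨g1, g2⟩ | ⟨g1, g2⟩
  · rw [Set.pair_comm] at g1 g2
    exact Or.inl ⟨h.hb_mem hz g1 he', h.hb_mem hz g2 hf'⟩
  · rw [Set.pair_comm] at g1 g2
    exact Or.inl ⟨h.hb_mem hz g1 hf', h.hb_mem hz g2 he'⟩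
  · rw [Set.pair_comm] at g1 g2
    exact Or.inr ⟨h.hb_mem hz g1 he', h.hb_mem hz g2 hf'⟩
  · rw [Set.pair_comm] at g1 g2
    exact Or.inr ⟨h.hb_mem hz g1 hf', h.hb_mem hz g2 he'⟩

/-- the half branches in the angle coordinate -/
theorem hb_pt439 {P : ℂ → Prop} {q τ : ℝ} (h : ∀ᶠ t : ℝ in 𝓝[>] 0, P (hb z (pt z q) τ t)) :
    ∀ᶠ t : ℝ in 𝓝[>] 0, P (pt z (q + τ * t)) := by
  have hpi : 0 < Real.pi / 3 := by positivity
  have hT : Tendsto (fun t : ℝ => t * (Real.pi / 3)) (𝓝[>] 0) (𝓝[>] 0) := by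
    refine tendsto_nhdsWithin_iff.2 ⟨?_, ?_⟩
    · have h1 : Continuous fun t : ℝ => t * (Real.pi / 3) := by fun_prop
      have h2 := h1.tendsto 0
      rw [zero_mul] at h2
      exact h2.mono_left nhdsWithin_le_nhds
    · filter_upwards [self_mem_nhdsWithin] with t ht
      have ht : 0 < t := ht
      show 0 < t * (Real.pi / 3)
      positivity
  filter_upwards [hT.eventually h] with t ht
  have e1 : hb z (pt z q) τ (t * (Real.pi / 3)) = pt z (q + τ * t) := by
    unfold hb pt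
    rw [add_sub_cancel_left, ← cis_add]
    congr 2; ring
  rw [← e1]; exact ht

theorem ev_circle439 (z : ℂ) {u : ℝ} {p : ℂ → Prop} (h : ∀ᶠ v in 𝓝 u, p (pt z v)) :
    ∀ᶠ q in 𝓝[sphere z 1] (pt z u), p q := by
  set c0 : ℂ := cis (u * (Real.pi / 3)) with hc0
  have hc0n : ‖c0‖ = 1 := norm_cis _
  have hne : c0 ≠ 0 := by intro h0; rw [h0, norm_zero] at hc0n; exact zero_ne_one hc0n
  -- the inverse chart
  let g : ℂ → ℝ := fun q => u + ((q - z) / c0).arg / (Real.pi / 3)
  have hpi : Real.pi / 3 ≠ 0 := by positivity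
  have hp : (pt z u - z) / c0 = 1 := by
    unfold pt; rw [add_sub_cancel_left]; exact div_self hne
  have hg : ContinuousAt g (pt z u) := by
    have h1 : ContinuousAt (fun q : ℂ => (q - z) / c0) (pt z u) := by
      have : Continuous fun q : ℂ => (q - z) / c0 := by fun_prop
      exact this.continuousAt
    have h2 : ContinuousAt Complex.arg ((pt z u - z) / c0) := by
      rw [hp]; exact Complex.continuousAt_arg Complex.one_mem_slitPlane
    have h3 : ContinuousAt (fun q : ℂ => ((q - z) / c0).arg) (pt z u) :=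
      ContinuousAt.comp (g := Complex.arg) h2 h1
    exact continuousAt_const.add (h3.div_const _)
  have hgu : g (pt z u) = u := by
    show u + ((pt z u - z) / c0).arg / (Real.pi / 3) = u
    rw [hp, Complex.arg_one]; ring
  have h1 : Tendsto g (𝓝[sphere z 1] (pt z u)) (𝓝 u) := by
    have := hg.tendsto
    rw [hgu] at this
    exact this.mono_left nhdsWithin_le_nhds
  filter_upwards [h1.eventually h, self_mem_nhdsWithin] with q hq hqz
  have hqz : dist q z = 1 := hqz
  have e : pt z (g q) = q := by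
    show z + cis ((u + ((q - z) / c0).arg / (Real.pi / 3)) * (Real.pi / 3)) = q
    have e1 : (u + ((q - z) / c0).arg / (Real.pi / 3)) * (Real.pi / 3) =
        u * (Real.pi / 3) + ((q - z) / c0).arg := by field_simp
    have hn : ‖(q - z) / c0‖ = 1 := by
      rw [norm_div, hc0n, ← dist_eq_norm, hqz, div_one]
    have e2 : cis ((q - z) / c0).arg = (q - z) / c0 := by
      have := Complex.norm_mul_exp_arg_mul_I ((q - z) / c0)
      rw [hn] at this
      simpa [cis] using this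
    rw [e1, cis_add, e2, ← hc0, mul_div_cancel₀ _ hne]
    ring
  rw [e] at hq
  exact hq

/-- the points of a circle in the angle coordinate -/
theorem pt_inj439 {s t : ℝ} (h : pt z s = pt z t) (h1 : s - t < 6) (h2 : t - s < 6) : s = t := by
  have h3 : cis (s * (Real.pi / 3)) = cis (t * (Real.pi / 3)) := by
    unfold pt at h; exact add_left_cancel h
  unfold cis at h3
  rw [Complex.exp_eq_exp_iff_exists_int] at h3
  obtain ⟨n, hn⟩ := h3
  have hpi := Real.pi_pos
  have h4 : s * (Real.pi / 3) = t * (Real.pi / 3) + n * (2 * Real.pi) := by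
    have h5 := congrArg Complex.im hn
    simp at h5
    linarith
  have h6 : s = t + 6 * n := by
    have h7 : (s - t - 6 * n) * (Real.pi / 3) = 0 := by linarith
    rcases mul_eq_zero.1 h7 with h8 | h8
    · linarith
    · exact absurd h8 (by positivity)
  have h7 : n = 0 := by
    have h8 : (n : ℝ) < 1 := by linarith
    have h9 : (-1 : ℝ) < n := by linarith
    have h10 : n < 1 := by exact_mod_cast h8
    have h11 : -1 < n := by exact_mod_cast h9
    omega
  rw [h7] at h6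
  simpa using h6

/-- one half branch, left side -/
theorem left439 {P : ℝ → Prop} {r : ℝ} (h : ∀ᶠ t : ℝ in 𝓝[>] 0, P (r + -1 * t)) :
    ∀ᶠ t : ℝ in 𝓝[<] r, P t := by
  have hT : Tendsto (fun t : ℝ => r - t) (𝓝[<] r) (𝓝[>] 0) := by
    refine tendsto_nhdsWithin_iff.2 ⟨?_, ?_⟩
    · have h1 : Continuous fun t : ℝ => r - t := by fun_prop
      have h2 := h1.tendsto r
      rw [sub_self] at h2
      exact h2.mono_left nhdsWithin_le_nhds
    · filter_upwards [self_mem_nhdsWithin] with t ht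
      have ht : t < r := ht
      show 0 < r - t
      linarith
  filter_upwards [hT.eventually h] with t ht
  have e1 : r + -1 * (r - t) = t := by ring
  rwa [e1] at ht

/-- one half branch, right side -/
theorem right439 {P : ℝ → Prop} {r : ℝ} (h : ∀ᶠ t : ℝ in 𝓝[>] 0, P (r + 1 * t)) :
    ∀ᶠ t : ℝ in 𝓝[>] r, P t := by
  have hT : Tendsto (fun t : ℝ => t - r) (𝓝[>] r) (𝓝[>] 0) := by
    refine tendsto_nhdsWithin_iff.2 ⟨?_, ?_⟩
    · have h1 : Continuous fun t : ℝ => t - r := by fun_prop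
      have h2 := h1.tendsto r
      rw [sub_self] at h2
      exact h2.mono_left nhdsWithin_le_nhds
    · filter_upwards [self_mem_nhdsWithin] with t ht
      have ht : r < t := ht
      show 0 < t - r
      linarith
  filter_upwards [hT.eventually h] with t ht
  have e1 : r + 1 * (t - r) = t := by ring
  rwa [e1] at ht

/-- an eventual property is locally eventual -/
theorem evev439 {P : ℝ → Prop} {r : ℝ} {S : Set ℝ} (hS : IsOpen S) (h : ∀ᶠ t in 𝓝[S] r, P t) :
    ∀ᶠ t in 𝓝[S] r, ∀ᶠ s in 𝓝 t, P s := by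
  filter_upwards [eventually_eventually_nhdsWithin.2 h, self_mem_nhdsWithin] with t h1 h2
  rwa [hS.nhdsWithin_eq h2] at h1

/-- the lattice points of the triangle -/
theorem latt439 (V : ℂ) (p : ℝ) :
    pt V (p + 1) = pt (pt V p) (p + 2) ∧ V = pt (pt V p) (p + 3) ∧
      V = pt (pt V (p + 1)) (p + 4) ∧ pt V p = pt (pt V (p + 1)) (p + -1) := by
  have h1 : cis ((p + 1) * (Real.pi / 3)) = cis (p * (Real.pi / 3)) + cis ((p + 2) * (Real.pi / 3)) := by
    have := pt_sum V p
    unfold pt at this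
    linear_combination -this
  have h2 : ∀ u : ℝ, cis ((u + 3) * (Real.pi / 3)) = -cis (u * (Real.pi / 3)) := by
    intro u
    have := pt_three V u
    unfold pt at this
    linear_combination this
  refine ⟨?_, ?_, ?_, ?_⟩
  · unfold pt; rw [h1]; ring
  · unfold pt; rw [h2]; ring
  · unfold pt
    have := h2 (p + 1)
    rw [show p + 1 + 3 = p + 4 by ring] at this
    rw [this]; ring
  · have h3 : pt (pt V (p + 1)) (p + -1) = pt (pt V (p + 1)) (p + 5) := by
      rw [← pt_six]; congr 1; ring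
    rw [h3]
    unfold pt
    have := h2 (p + 2)
    rw [show p + 2 + 3 = p + 5 by ring] at this
    rw [this, h1]; ring

theorem ctr439 (h : Irr U T) (nd : [a, b, c, d, e, f].Nodup) (hz : DPt T z a b c d) :
    Ctr U T z a b c d e f :=
  ⟨h, hz.pal, nd, fun y hy hloc hsub => h.twoPairs hz y hy hloc hsub⟩

/-- the oriented form -/
theorem triO439 (h : Irr U T) {p : ℝ} (nd : [a, b, c, d, e, f].Nodup) (ha : a ∈ T V) (hb : b ∈ T V)
    (hc : c ∈ T V) (hd : d ∈ T V) (h1 : DPt T (pt V p) a b e f)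
    (h2 : DPt T (pt V (p + 1)) c d e f)
    (n1 : ∀ x, dist x (pt V p) = 1 → 4 ≤ (T x).ncard → x = V ∨ x = pt V (p + 1))
    (n2 : ∀ x, dist x (pt V (p + 1)) = 1 → 4 ≤ (T x).ncard → x = V ∨ x = pt V p)
    (gD : ∀ᶠ t : ℝ in 𝓝[>] 0, d ∈ T (pt (pt V p) (p + 2 + 1 * t)))
    (gC : ∀ᶠ t : ℝ in 𝓝[>] 0, c ∈ T (pt (pt V p) (p + 2 + -1 * t)))
    (gA : ∀ᶠ t : ℝ in 𝓝[>] 0, a ∈ T (pt (pt V (p + 1)) (p + -1 + 1 * t)))
    (gB : ∀ᶠ t : ℝ in 𝓝[>] 0, b ∈ T (pt (pt V (p + 1)) (p + -1 + -1 * t))) : False := by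
  obtain ⟨l1, l2, l3, l4⟩ := latt439 V p
  set y1 := pt V p with hy1
  set y2 := pt V (p + 1) with hy2
  have d1 : dist y1 V = 1 := dist_pt V p
  have d2 : dist y2 V = 1 := dist_pt V (p + 1)
  have d12 : dist y1 y2 = 1 := dist_pt_one V p
  have nd1 : [a, b, e, f, c, d].Nodup ∧ [c, d, e, f, a, b].Nodup := by
    simp only [List.nodup_cons, List.mem_cons, List.not_mem_nil, or_false, not_or, List.nodup_nil,
      and_true, not_false_eq_true] at nd ⊢
    obtain ⟨⟨ab, ac, ad, ae, af⟩, ⟨bc, bd, be, bf⟩, ⟨cd, ce, cf⟩, ⟨de, df⟩, ef⟩ := nd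
    exact ⟨⟨⟨ab, ae, af, ac, ad⟩, ⟨be, bf, bc, bd⟩, ⟨ef, Ne.symm ce, Ne.symm de⟩,
      ⟨Ne.symm cf, Ne.symm df⟩, cd⟩, ⟨⟨cd, ce, cf, Ne.symm ac, Ne.symm bc⟩,
      ⟨de, df, Ne.symm ad, Ne.symm bd⟩, ⟨ef, Ne.symm ae, Ne.symm be⟩,
      ⟨Ne.symm af, Ne.symm bf⟩, ab⟩⟩
  have C1 := ctr439 h nd1.1 h1
  have C2 := ctr439 h nd1.2 h2
  -- positions
  have q1 : ∀ t ∈ Ioo (-1 : ℝ) 2, pt y1 (p + t) ≠ V ∧ pt y1 (p + t) ≠ y2 := by
    intro t ht
    constructor
    · intro hh
      rw [l2] at hh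
      have := pt_inj439 hh (by linarith [ht.2]) (by linarith [ht.1])
      linarith [ht.2]
    · intro hh
      rw [l1] at hh
      have := pt_inj439 hh (by linarith [ht.2]) (by linarith [ht.1])
      linarith [ht.2]
  have q2 : ∀ t ∈ Ioo (-1 : ℝ) 2, pt y2 (p + t) ≠ V ∧ pt y2 (p + t) ≠ y1 := by
    intro t ht
    constructor
    · intro hh
      rw [l3] at hh
      have := pt_inj439 hh (by linarith [ht.2]) (by linarith [ht.1])
      linarith [ht.2]
    · intro hh
      rw [l4] at hh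
      have := pt_inj439 hh (by linarith [ht.2]) (by linarith [ht.1])
      linarith [ht.1]
  have q3 : ∀ t : ℝ, pt y2 (p + t) + y1 = 2 * pt y1 (p + t) → pt y1 (p + t) = y2 := by
    intro t hh
    unfold pt at hh ⊢
    linear_combination -hh
  have q4 : ∀ t : ℝ, pt y1 (p + t) + y2 = 2 * pt y2 (p + t) → pt y2 (p + t) = y1 := by
    intro t hh
    unfold pt at hh ⊢
    linear_combination -hh
  -- the colours of `S(V)`
  have xfree : ∀ (t : ℝ) (g : Fin 6), t ∈ Ioo (-1 : ℝ) 2 → t ≠ 0 → t ≠ 1 →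
      (∀ᶠ s in 𝓝 t, g ∈ T (pt V (p + s))) → g ∉ T (pt y1 (p + t)) ∧ g ∉ T (pt y2 (p + t)) := by
    intro t g ht h0 h01 hg
    have hJ : ∀ᶠ q in 𝓝[sphere V 1] (pt V (p + t)), g ∈ T q := by
      refine ev_circle439 V ?_
      have hc : Tendsto (fun s : ℝ => s - p) (𝓝 (p + t)) (𝓝 t) := by
        have h3 : Continuous fun s : ℝ => s - p := by fun_prop
        have h4 := h3.tendsto (p + t)
        rwa [show p + t - p = t by ring] at h4
      filter_upwards [hc.eventually hg] with s hs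
      rwa [show p + (s - p) = s by ring] at hs
    constructor
    · intro hgw
      refine line_free h (dist_pt V _) hJ (v := pt y1 (p + t)) ?_ (q1 t ht).1 (fun hh => ?_)
        (h.sub _ hgw)
      · rw [H50.dist_par, dist_comm]; exact d1
      · have h5 : pt V (p + t) = pt V p := by
          rw [← hy1]
          unfold pt at hh ⊢
          linear_combination -hh
        have := pt_inj439 h5 (by linarith [ht.2]) (by linarith [ht.1])
        exact h0 (by linarith)
    · intro hgw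
      refine line_free h (dist_pt V _) hJ (v := pt y2 (p + t)) ?_ (q2 t ht).1 (fun hh => ?_)
        (h.sub _ hgw)
      · rw [H50.dist_par, dist_comm]; exact d2
      · have h5 : pt V (p + t) = pt V (p + 1) := by
          rw [← hy2]
          unfold pt at hh ⊢
          linear_combination -hh
        have := pt_inj439 h5 (by linarith [ht.2]) (by linarith [ht.1])
        exact h01 (by linarith)
  -- the germs of `S(V)`
  have noef : ∀ {r : ℝ} {q : ℂ} {i j : Fin 6}, (r = 0 ∨ r = 1) → q = pt V (p + r) →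
      DPt T q i j e f → i ∈ T V → j ∈ T V → ∀ᶠ t in 𝓝[≠] r,
        pt y1 (p + t) ∉ closure (Ex T y1 {e, f}) ∧ pt y2 (p + t) ∉ closure (Ex T y2 {e, f}) := by
    intro r q i j hr hq hD hi hj
    subst hq
    have hIoo : Ioo (r - 1) (r + 1) ∈ 𝓝 r := Ioo_mem_nhds (by linarith) (by linarith)
    have fin : ∀ {S : Set ℝ} {g : Fin 6}, IsOpen S → S ⊆ {r}ᶜ → (g = e ∨ g = f) →
        (∀ᶠ t in 𝓝[S] r, g ∈ T (pt V (p + t))) → ∀ᶠ t in 𝓝[S] r,
        pt y1 (p + t) ∉ closure (Ex T y1 {e, f}) ∧ pt y2 (p + t) ∉ closure (Ex T y2 {e, f}) := by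
      intro S g hS hSr hg hev
      filter_upwards [evev439 (P := fun t => g ∈ T (pt V (p + t))) hS hev, self_mem_nhdsWithin,
        mem_nhdsWithin_of_mem_nhds hIoo] with t k1 k2 k3
      have k4 : t ≠ r := hSr k2
      have k5 : t ∈ Ioo (-1 : ℝ) 2 ∧ t ≠ 0 ∧ t ≠ 1 := by
        rcases hr with rfl | rfl
        · exact ⟨⟨by linarith [k3.1], by linarith [k3.2]⟩, k4, by linarith [k3.2]⟩
        · exact ⟨⟨by linarith [k3.1], by linarith [k3.2]⟩, (by linarith [k3.1] : (0 : ℝ) < t).ne', k4⟩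
      obtain ⟨k6, k7⟩ := xfree t g k5.1 k5.2.1 k5.2.2 k1
      have hg' : g ∈ ({e, f} : Set (Fin 6)) := by
        rcases hg with rfl | rfl <;> simp
      exact ⟨fun hcl => k6 (sub_of_closure h hcl hg'), fun hcl => k7 (sub_of_closure h hcl hg')⟩
    have hsplit : 𝓝[≠] r = 𝓝[<] r ⊔ 𝓝[>] r := by
      rw [← nhdsWithin_union, Iio_union_Ioi]
    rw [hsplit, eventually_sup]
    have hgerm := germ439 h hD.swap (z := V) (dist_pt V _) hi hj
    have e1 : ∀ t : ℝ, p + r + -1 * t = p + (r + -1 * t) := fun t => by ring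
    have e2 : ∀ t : ℝ, p + r + 1 * t = p + (r + 1 * t) := fun t => by ring
    rcases hgerm with ⟨g1, g2⟩ | ⟨g1, g2⟩
    · have g1' := hb_pt439 (P := fun q => e ∈ T q) g1
      have g2' := hb_pt439 (P := fun q => f ∈ T q) g2
      constructor
      · refine fin (S := Iio r) (g := f) isOpen_Iio (fun x hx => ne_of_lt hx) (Or.inr rfl) ?_
        refine left439 (P := fun t => f ∈ T (pt V (p + t))) ?_
        filter_upwards [g2'] with t ht
        rw [e1] at ht; exact ht
      · refine fin (S := Ioi r) (g := e) isOpen_Ioi (fun x hx => ne_of_gt hx) (Or.inl rfl) ?_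
        refine right439 (P := fun t => e ∈ T (pt V (p + t))) ?_
        filter_upwards [g1'] with t ht
        rw [e2] at ht; exact ht
    · have g1' := hb_pt439 (P := fun q => f ∈ T q) g1
      have g2' := hb_pt439 (P := fun q => e ∈ T q) g2
      constructor
      · refine fin (S := Iio r) (g := e) isOpen_Iio (fun x hx => ne_of_lt hx) (Or.inl rfl) ?_
        refine left439 (P := fun t => e ∈ T (pt V (p + t))) ?_
        filter_upwards [g2'] with t ht
        rw [e1] at ht; exact ht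
      · refine fin (S := Ioi r) (g := f) isOpen_Ioi (fun x hx => ne_of_gt hx) (Or.inr rfl) ?_
        refine right439 (P := fun t => f ∈ T (pt V (p + t))) ?_
        filter_upwards [g1'] with t ht
        rw [e2] at ht; exact ht
  have F : Fr439 U T y1 y2 (fun t => pt y1 (p + t)) (fun t => pt y2 (p + t)) a b c d e f :=
    { C1 := C1
      C2 := C2
      t1 := fun x hx h3 hab g hg hgz => third439 h h1 hx h3 hab hg hgz
      t2 := fun x hx h3 hab g hg hgz => third439 h h2 hx h3 hab hg hgz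
      cw := (continuous_pt y1).comp (by fun_prop)
      cu := (continuous_pt y2).comp (by fun_prop)
      dw := fun t => dist_pt y1 _
      du := fun t => dist_pt y2 _
      dwu := fun t => by
        show dist (pt y1 (p + t)) (pt y2 (p + t)) = 1
        rw [H50.dist_par]; exact d12
      d12 := d12
      hW := by
        show pt y1 (p + 1) = pt y2 (p + 0)
        rw [hy1, hy2]
        unfold pt
        rw [add_zero]; ring
      p1 := fun t ht => ⟨(q2 t ht).2, fun hh => (q1 t ht).2 (q3 t hh)⟩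
      p2 := fun t ht => ⟨(q1 t ht).2, fun hh => (q2 t ht).2 (q4 t hh)⟩
      ow := fun t ht => by
        by_contra hcon
        rcases n1 _ (dist_pt y1 (p + t)) (by
          have : ¬ (T (pt y1 (p + t))).ncard ≤ 3 := hcon
          omega) with hh | hh
        · exact (q1 t ht).1 hh
        · exact (q1 t ht).2 hh
      ou := fun t ht => by
        by_contra hcon
        rcases n2 _ (dist_pt y2 (p + t)) (by
          have : ¬ (T (pt y2 (p + t))).ncard ≤ 3 := hcon
          omega) with hh | hh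
        · exact (q2 t ht).1 hh
        · exact (q2 t ht).2 hh
      n0 := noef (Or.inl rfl) (by rw [add_zero]) h1 ha hb
      n1 := noef (Or.inr rfl) rfl h2 hc hd
      s1 := by
        have k1 : ∀ᶠ t in 𝓝[<] (1 : ℝ), c ∈ T (pt y1 (p + (t + 1))) := by
          refine left439 (P := fun t => c ∈ T (pt y1 (p + (t + 1)))) ?_
          filter_upwards [gC] with t ht
          rwa [show p + 2 + -1 * t = p + (1 + -1 * t + 1) by ring] at ht
        filter_upwards [k1] with t ht only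
        refine C1.int (dist_pt y1 _) only (dist_pt y1 (p + t + 1)) (dist_pt_one y1 _) ?_
        refine ⟨dist_pt y1 _, ?_⟩
        rwa [← add_assoc] at ht
      s1' := by
        have k1 : ∀ᶠ t in 𝓝[>] (1 : ℝ), d ∈ T (pt y1 (p + (t + 1))) := by
          refine right439 (P := fun t => d ∈ T (pt y1 (p + (t + 1)))) ?_
          filter_upwards [gD] with t ht
          rwa [show p + 2 + 1 * t = p + (1 + 1 * t + 1) by ring] at ht
        filter_upwards [k1] with t ht only
        refine C1.int (dist_pt y1 _) only (dist_pt y1 (p + t + 1)) (dist_pt_one y1 _) ?_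
        refine ⟨dist_pt y1 _, ?_⟩
        rwa [← add_assoc] at ht
      s0 := by
        have k1 : ∀ᶠ t in 𝓝[>] (0 : ℝ), a ∈ T (pt y2 (p + (t - 1))) := by
          refine right439 (P := fun t => a ∈ T (pt y2 (p + (t - 1)))) ?_
          filter_upwards [gA] with t ht
          rwa [show p + -1 + 1 * t = p + (0 + 1 * t - 1) by ring] at ht
        filter_upwards [k1] with t ht only
        have e3 : pt y2 (p + (t - 1) + 1) = pt y2 (p + t) := by congr 1; ring
        have hd3 := dist_pt_one y2 (p + (t - 1))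
        rw [e3] at hd3
        refine C2.int (dist_pt y2 _) only (dist_pt y2 (p + (t - 1)))
          (by rw [dist_comm]; exact hd3) ?_
        exact ⟨dist_pt y2 _, ht⟩
      s0' := by
        have k1 : ∀ᶠ t in 𝓝[<] (0 : ℝ), b ∈ T (pt y2 (p + (t - 1))) := by
          refine left439 (P := fun t => b ∈ T (pt y2 (p + (t - 1)))) ?_
          filter_upwards [gB] with t ht
          rwa [show p + -1 + -1 * t = p + (0 + -1 * t - 1) by ring] at ht
        filter_upwards [k1] with t ht only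
        have e3 : pt y2 (p + (t - 1) + 1) = pt y2 (p + t) := by congr 1; ring
        have hd3 := dist_pt_one y2 (p + (t - 1))
        rw [e3] at hd3
        refine C2.int (dist_pt y2 _) only (dist_pt y2 (p + (t - 1)))
          (by rw [dist_comm]; exact hd3) ?_
        exact ⟨dist_pt y2 _, ht⟩ }
  exact F.false

/-- the form with the angle -/
theorem triP439 (h : Irr U T) {p : ℝ} (nd : [a, b, c, d, e, f].Nodup) (ha : a ∈ T V) (hb : b ∈ T V)
    (hc : c ∈ T V) (hd : d ∈ T V) (h1 : DPt T (pt V p) a b e f)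
    (h2 : DPt T (pt V (p + 1)) c d e f)
    (n1 : ∀ x, dist x (pt V p) = 1 → 4 ≤ (T x).ncard → x = V ∨ x = pt V (p + 1))
    (n2 : ∀ x, dist x (pt V (p + 1)) = 1 → 4 ≤ (T x).ncard → x = V ∨ x = pt V p) : False := by
  obtain ⟨l1, l2, l3, l4⟩ := latt439 V p
  have ndp : [b, a, c, d, e, f].Nodup ∧ [a, b, d, c, e, f].Nodup ∧ [b, a, d, c, e, f].Nodup := by
    simp only [List.nodup_cons, List.mem_cons, List.not_mem_nil, or_false, not_or, List.nodup_nil,
      and_true, not_false_eq_true] at nd ⊢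
    obtain ⟨⟨ab, ac, ad, ae, af⟩, ⟨bc, bd, be, bf⟩, ⟨cd, ce, cf⟩, ⟨de, df⟩, ef⟩ := nd
    exact ⟨⟨⟨Ne.symm ab, bc, bd, be, bf⟩, ⟨ac, ad, ae, af⟩, ⟨cd, ce, cf⟩, ⟨de, df⟩, ef⟩,
      ⟨⟨ab, ad, ac, ae, af⟩, ⟨bd, bc, be, bf⟩, ⟨Ne.symm cd, de, df⟩, ⟨ce, cf⟩, ef⟩,
      ⟨⟨Ne.symm ab, bd, bc, be, bf⟩, ⟨ad, ac, ae, af⟩, ⟨Ne.symm cd, de, df⟩, ⟨ce, cf⟩, ef⟩⟩
  have e1 : e ∈ T (pt V p) := by rw [h1.pal]; simp
  have f1 : f ∈ T (pt V p) := by rw [h1.pal]; simp
  have e2 : e ∈ T (pt V (p + 1)) := by rw [h2.pal]; simp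
  have f2 : f ∈ T (pt V (p + 1)) := by rw [h2.pal]; simp
  have G2 := germ439 h h2 (z := pt V p) (by rw [dist_comm]; exact dist_pt_one V p) e1 f1
  have G1 := germ439 h h1 (z := pt V (p + 1)) (dist_pt_one V p) e2 f2
  have k2 : ∀ {i : Fin 6} {τ : ℝ},
      (∀ᶠ t : ℝ in 𝓝[>] 0, i ∈ T (Six.hb (pt V p) (pt V (p + 1)) τ t)) →
      ∀ᶠ t : ℝ in 𝓝[>] 0, i ∈ T (pt (pt V p) (p + 2 + τ * t)) := by
    intro i τ hi
    rw [l1] at hi
    exact hb_pt439 (P := fun q => i ∈ T q) hi
  have k1 : ∀ {i : Fin 6} {τ : ℝ},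
      (∀ᶠ t : ℝ in 𝓝[>] 0, i ∈ T (Six.hb (pt V (p + 1)) (pt V p) τ t)) →
      ∀ᶠ t : ℝ in 𝓝[>] 0, i ∈ T (pt (pt V (p + 1)) (p + -1 + τ * t)) := by
    intro i τ hi
    have hi' : ∀ᶠ t : ℝ in 𝓝[>] 0,
        i ∈ T (Six.hb (pt V (p + 1)) (pt (pt V (p + 1)) (p + -1)) τ t) := by
      rw [← l4]; exact hi
    exact hb_pt439 (P := fun q => i ∈ T q) hi'
  rcases G2 with ⟨g1, g2⟩ | ⟨g1, g2⟩ <;> rcases G1 with ⟨g3, g4⟩ | ⟨g3, g4⟩
  · -- `c +, d -`, `a +, b -`
    exact triO439 h ndp.2.1 ha hb hd hc h1 h2.swap12 n1 n2 (k2 g1) (k2 g2) (k1 g3) (k1 g4)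
  · exact triO439 h ndp.2.2 hb ha hd hc h1.swap12 h2.swap12 n1 n2 (k2 g1) (k2 g2) (k1 g3) (k1 g4)
  · exact triO439 h nd ha hb hc hd h1 h2 n1 n2 (k2 g1) (k2 g2) (k1 g3) (k1 g4)
  · exact triO439 h ndp.1 hb ha hc hd h1.swap12 h2 n1 n2 (k2 g1) (k2 g2) (k1 g3) (k1 g4)

/-- the angle of a point of the circle -/
theorem exists_pt439 {q : ℂ} (hq : dist q z = 1) : ∃ s : ℝ, q = pt z s := by
  obtain ⟨θ, hθ⟩ := exists_cis (u := q - z) (by rw [← dist_eq_norm]; exact hq)
  refine ⟨θ / (Real.pi / 3), ?_⟩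
  unfold pt
  rw [div_mul_cancel₀ _ (by positivity), ← hθ]; ring

/-- two points of the circle at distance one -/
theorem exists_sign439 {s : ℝ} {p : ℂ} (hp : dist p z = 1) (hs : dist p (pt z s) = 1) :
    ∃ σ : ℝ, (σ = 1 ∨ σ = -1) ∧ p = pt z (s + σ) := by
  obtain ⟨w, hw⟩ : ∃ w, w = (p - z) * cis (-(s * (Real.pi / 3))) := ⟨_, rfl⟩
  have hc : cis (-(s * (Real.pi / 3))) * cis (s * (Real.pi / 3)) = 1 := by
    rw [← cis_add, neg_add_cancel]
    unfold cis; simp
  have hpw : p = z + cis (s * (Real.pi / 3)) * w := by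
    rw [hw]; linear_combination (p - z) * (-hc)
  have h1 : ‖w‖ = 1 := by
    rw [hw, norm_mul, norm_cis, mul_one, ← dist_eq_norm]; exact hp
  have h2 : ‖w - 1‖ = 1 := by
    rw [dist_eq_norm, hpw] at hs
    have e1 : z + cis (s * (Real.pi / 3)) * w - pt z s = cis (s * (Real.pi / 3)) * (w - 1) := by
      unfold pt; ring
    rw [e1, norm_mul, norm_cis, one_mul] at hs
    exact hs
  have h3 : w.re * w.re + w.im * w.im = 1 := by
    have := Complex.normSq_eq_norm_sq w
    rw [h1, Complex.normSq_apply] at this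
    linarith
  have h4 : (w.re - 1) * (w.re - 1) + w.im * w.im = 1 := by
    have := Complex.normSq_eq_norm_sq (w - 1)
    rw [h2, Complex.normSq_apply] at this
    simp only [Complex.sub_re, Complex.one_re, Complex.sub_im, Complex.one_im, sub_zero] at this
    linarith
  have h5 : w.re = 1 / 2 := by linarith
  have h6 : √3 * √3 = 3 := Real.mul_self_sqrt (by norm_num)
  have h7 : (w.im - √3 / 2) * (w.im + √3 / 2) = 0 := by
    rw [h5] at h3; nlinarith
  rcases mul_eq_zero.1 h7 with h8 | h8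
  · refine ⟨1, Or.inl rfl, ?_⟩
    have e2 : w = (⟨1 / 2, √3 / 2⟩ : ℂ) := Complex.ext h5 (by simp; linarith)
    unfold pt
    rw [show (s + 1) * (Real.pi / 3) = s * (Real.pi / 3) + Real.pi / 3 by ring, cis_add,
      cis_third, hpw, e2]
  · refine ⟨-1, Or.inr rfl, ?_⟩
    have e2 : w = (⟨1 / 2, -(√3 / 2)⟩ : ℂ) := Complex.ext h5 (by simp; linarith)
    unfold pt
    rw [show (s + -1) * (Real.pi / 3) = s * (Real.pi / 3) + -(Real.pi / 3) by ring, cis_add,
      cis_neg_third, hpw, e2]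

/-- **Unit triangles, pure case.** `V, y1, y2` a unit triangle, `y1 = (ab | ef)`, `y2 = (cd | ef)`
two-pair points, `a b c d` colours of `V`; the circles of `y1` and `y2` have no further point with at
least four colours.  Impossible. -/
theorem tri439 (h : Irr U T) (nd : [a, b, c, d, e, f].Nodup) (ha : a ∈ T V) (hb : b ∈ T V)
    (hc : c ∈ T V) (hd : d ∈ T V) (h1 : DPt T y1 a b e f) (h2 : DPt T y2 c d e f)
    (d1 : dist y1 V = 1) (d2 : dist y2 V = 1) (d12 : dist y1 y2 = 1)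
    (n1 : ∀ x, dist x y1 = 1 → 4 ≤ (T x).ncard → x = V ∨ x = y2)
    (n2 : ∀ x, dist x y2 = 1 → 4 ≤ (T x).ncard → x = V ∨ x = y1) : False := by
  obtain ⟨p, rfl⟩ := exists_pt439 d1
  obtain ⟨σ, hσ, rfl⟩ := exists_sign439 d2 (by rw [dist_comm]; exact d12)
  rcases hσ with rfl | rfl
  · exact triP439 h nd ha hb hc hd h1 h2 n1 n2
  · have nd' : [c, d, a, b, e, f].Nodup := by
      simp only [List.nodup_cons, List.mem_cons, List.not_mem_nil, or_false, not_or,
        List.nodup_nil, and_true, not_false_eq_true] at nd ⊢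
      obtain ⟨⟨ab, ac, ad, ae, af⟩, ⟨bc, bd, be, bf⟩, ⟨cd, ce, cf⟩, ⟨de, df⟩, ef⟩ := nd
      exact ⟨⟨cd, Ne.symm ac, Ne.symm bc, ce, cf⟩, ⟨Ne.symm ad, Ne.symm bd, de, df⟩,
        ⟨ab, ae, af⟩, ⟨be, bf⟩, ef⟩
    have e1 : pt V (p + -1 + 1) = pt V p := by congr 1; ring
    refine triP439 h (p := p + -1) nd' hc hd ha hb h2 (by rw [e1]; exact h1) ?_ ?_
    · rw [e1]; exact n2
    · rw [e1]; exact n1

end Vale.Agent.P032.H439
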